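import Vale.Agent.H6.AB.ADefs

/-!
P252, row A0: abstract fixed point theorem (Banach with weights `exp (lam |s|)`).
-/

namespace Vale.Agent.H6.AB

open MeasureTheory Set
open scoped BoundedContinuousFunction

namespace A0

theorem T_cont (p : ℕ) {f : ℝ → ℝ} (hf : Continuous f) : Continuous (T p f) := by
  unfold T
  apply intervalIntegral.continuous_parametric_intervalIntegral_of_continuous'
  fun_prop

/-- exponential bound for primitives, `s ≥ 0`. -/
theorem prim_bound_nonneg {f : ℝ → ℝ} (hf : Continuous f) (A lam : ℝ) (hl : 0 < lam) (hA : 0 ≤ A)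
    (s : ℝ) (hs : 0 ≤ s) (hb : ∀ t, |f t| ≤ A * Real.exp (lam * |t|)) :
    |∫ t in (0 : ℝ)..s, f t| ≤ A / lam * Real.exp (lam * s) := by
  have h1 : |∫ t in (0 : ℝ)..s, f t| ≤ ∫ t in (0 : ℝ)..s, A * Real.exp (lam * t) := by
    have h2 : ‖∫ t in (0 : ℝ)..s, f t‖ ≤ ∫ t in (0 : ℝ)..s, A * Real.exp (lam * t) := by
      apply intervalIntegral.norm_integral_le_of_norm_le hs
      · refine Filter.Eventually.of_forall fun t ht => ?_
        have := hb t
        rwa [abs_of_pos ht.1] at this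
      · apply Continuous.intervalIntegrable
        fun_prop
    exact h2
  refine h1.trans ?_
  have h3 : ∫ t in (0 : ℝ)..s, A * Real.exp (lam * t)
      = A / lam * Real.exp (lam * s) - A / lam * Real.exp (lam * 0) := by
    apply intervalIntegral.integral_eq_sub_of_hasDerivAt
    · intro t _
      have := ((((hasDerivAt_id' t).const_mul lam).exp).const_mul (A / lam))
      exact this.congr_deriv (by field_simp)
    · apply Continuous.intervalIntegrable
      fun_prop
  rw [h3]
  have : 0 ≤ A / lam * Real.exp (lam * 0) := by positivity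
  linarith

theorem prim_bound {f : ℝ → ℝ} (hf : Continuous f) (A lam : ℝ) (hl : 0 < lam) (hA : 0 ≤ A)
    (hb : ∀ t, |f t| ≤ A * Real.exp (lam * |t|)) (s : ℝ) :
    |∫ t in (0 : ℝ)..s, f t| ≤ A / lam * Real.exp (lam * |s|) := by
  rcases le_total 0 s with hs | hs
  · rw [abs_of_nonneg hs]
    exact prim_bound_nonneg hf A lam hl hA s hs hb
  · rw [abs_of_nonpos hs]
    have h1 := prim_bound_nonneg (f := fun t => f (-t)) (by fun_prop) A lam hl hA (-s)
      (by linarith) (fun t => by simpa using hb (-t))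
    have h2 : ∫ t in (0 : ℝ)..(-s), f (-t) = -∫ t in (0 : ℝ)..s, f t := by
      rw [intervalIntegral.integral_comp_neg, intervalIntegral.integral_symm]
      simp
    rw [h2, abs_neg] at h1
    exact h1

/-- bound for `T`. -/
theorem T_bound (p : ℕ) {f : ℝ → ℝ} (hf : Continuous f) (A B lam : ℝ) (hl : 0 < lam) (hA : 0 ≤ A)
    (hB : 0 ≤ B) (hb : ∀ t, |f t| ≤ (A + B * |t|) * Real.exp (lam * |t|)) (s : ℝ) :
    |T p f s| ≤ (A / 2 + B / (2 * lam)) * Real.exp (lam * |s|) := by
  unfold T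
  have h1 : ‖∫ σ in (0 : ℝ)..1, σ ^ (p + 1) * f (s * σ ^ 2)‖ ≤
      ∫ σ in (0 : ℝ)..1, (A * σ * Real.exp (lam * |s|)
        + B * (|s| * σ * Real.exp (lam * (|s| * σ ^ 2)))) := by
    apply intervalIntegral.norm_integral_le_of_norm_le zero_le_one
    · refine Filter.Eventually.of_forall fun σ hσ => ?_
      have h0 : 0 < σ := hσ.1
      have h1 : σ ≤ 1 := hσ.2
      have e1 : |s * σ ^ 2| = |s| * σ ^ 2 := by rw [abs_mul, abs_of_nonneg (by positivity : 0 ≤ σ ^ 2)]
      have e2 : σ ^ (p + 1) ≤ σ := by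
        calc σ ^ (p + 1) ≤ σ ^ 1 := pow_le_pow_of_le_one h0.le h1 (by omega)
          _ = σ := pow_one σ
      have e3 : σ ^ 2 ≤ 1 := by nlinarith
      have e4 : |s| * σ ^ 2 ≤ |s| := by nlinarith [abs_nonneg s]
      have e5 : Real.exp (lam * (|s| * σ ^ 2)) ≤ Real.exp (lam * |s|) := by
        apply Real.exp_le_exp.2
        exact mul_le_mul_of_nonneg_left e4 hl.le
      have e6 := hb (s * σ ^ 2)
      rw [e1] at e6
      rw [Real.norm_eq_abs, abs_mul, abs_of_nonneg (by positivity : 0 ≤ σ ^ (p + 1))]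
      have e7 : σ ^ (p + 1) * |f (s * σ ^ 2)| ≤
          σ * ((A + B * (|s| * σ ^ 2)) * Real.exp (lam * (|s| * σ ^ 2))) :=
        mul_le_mul e2 e6 (abs_nonneg _) h0.le
      refine e7.trans ?_
      have e8 : σ * ((A + B * (|s| * σ ^ 2)) * Real.exp (lam * (|s| * σ ^ 2)))
          = A * σ * Real.exp (lam * (|s| * σ ^ 2))
            + B * (|s| * σ * Real.exp (lam * (|s| * σ ^ 2))) * σ ^ 2 := by ring
      rw [e8]
      have e9 : A * σ * Real.exp (lam * (|s| * σ ^ 2)) ≤ A * σ * Real.exp (lam * |s|) :=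
        mul_le_mul_of_nonneg_left e5 (by positivity)
      have e10 : B * (|s| * σ * Real.exp (lam * (|s| * σ ^ 2))) * σ ^ 2
          ≤ B * (|s| * σ * Real.exp (lam * (|s| * σ ^ 2))) := by
        have : 0 ≤ B * (|s| * σ * Real.exp (lam * (|s| * σ ^ 2))) := by positivity
        nlinarith
      linarith
    · apply Continuous.intervalIntegrable
      fun_prop
  rw [Real.norm_eq_abs] at h1
  refine h1.trans ?_
  have h3 : ∫ σ in (0 : ℝ)..1, (A * σ * Real.exp (lam * |s|)
        + B * (|s| * σ * Real.exp (lam * (|s| * σ ^ 2))))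
      = (A * 1 ^ 2 / 2 * Real.exp (lam * |s|) + B / (2 * lam) * Real.exp (lam * (|s| * 1 ^ 2)))
      - (A * 0 ^ 2 / 2 * Real.exp (lam * |s|) + B / (2 * lam) * Real.exp (lam * (|s| * 0 ^ 2))) := by
    apply intervalIntegral.integral_eq_sub_of_hasDerivAt
      (f := fun σ : ℝ => A * σ ^ 2 / 2 * Real.exp (lam * |s|)
        + B / (2 * lam) * Real.exp (lam * (|s| * σ ^ 2)))
    · intro σ _
      have d1 : HasDerivAt (fun σ : ℝ => A * σ ^ 2 / 2 * Real.exp (lam * |s|))
          (A * σ * Real.exp (lam * |s|)) σ := by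
        have := (((hasDerivAt_pow 2 σ).const_mul A).div_const 2).mul_const (Real.exp (lam * |s|))
        exact this.congr_deriv (by push_cast; ring)
      have d2 : HasDerivAt (fun σ : ℝ => B / (2 * lam) * Real.exp (lam * (|s| * σ ^ 2)))
          (B * (|s| * σ * Real.exp (lam * (|s| * σ ^ 2)))) σ := by
        have := ((((hasDerivAt_pow 2 σ).const_mul |s|).const_mul lam).exp).const_mul (B / (2 * lam))
        exact this.congr_deriv (by push_cast; field_simp)
      exact d1.add d2
    · apply Continuous.intervalIntegrable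
      fun_prop
  rw [h3]
  have : 0 ≤ B / (2 * lam) * Real.exp (lam * (|s| * 0 ^ 2)) := by positivity
  have h4 : (A * 1 ^ 2 / 2 * Real.exp (lam * |s|) + B / (2 * lam) * Real.exp (lam * (|s| * 1 ^ 2)))
      = (A / 2 + B / (2 * lam)) * Real.exp (lam * |s|) := by
    rw [one_pow, mul_one, mul_one]; ring
  have h5 : A * 0 ^ 2 / 2 * Real.exp (lam * |s|) = 0 := by ring
  rw [h4, h5]
  linarith

theorem T_sub (p : ℕ) {f g : ℝ → ℝ} (hf : Continuous f) (hg : Continuous g) (s : ℝ) :
    T p f s - T p g s = T p (fun t => f t - g t) s := by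
  unfold T
  rw [← intervalIntegral.integral_sub]
  · congr 1
    funext σ
    ring
  · apply Continuous.intervalIntegrable; fun_prop
  · apply Continuous.intervalIntegrable; fun_prop

end A0

open A0 in
/-- Row A0: abstract fixed point theorem (Banach, weights `exp (λ |s|)`). -/
theorem fixed_point_abs (p : ℕ) (M N : ℝ → ℝ → ℝ → ℝ) (C : ℝ)
    (hM : Continuous fun q : ℝ × ℝ × ℝ => M q.1 q.2.1 q.2.2)
    (hN : Continuous fun q : ℝ × ℝ × ℝ => N q.1 q.2.1 q.2.2)
    (hMb : ∀ s x z, |M s x z| ≤ C) (hNb : ∀ s x z, |N s x z| ≤ C)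
    (hMl : ∀ s x z x' z', |M s x z - M s x' z'| ≤ C * (|x - x'| + |z - z'|))
    (hNl : ∀ s x z x' z', |N s x z - N s x' z'| ≤ C * (1 + |s|) * |x - x'| + C * |s| * |z - z'|) :
    ∃ ξ ζ : ℝ → ℝ, Continuous ξ ∧ Continuous ζ ∧
      (∀ s, ξ s = 1 + ∫ t in (0 : ℝ)..s, M t (ξ t) (ζ t)) ∧
      (∀ s, ζ s = T p (fun t => N t (ξ t) (ζ t)) s) := by
  have hC : 0 ≤ C := (abs_nonneg _).trans (hMb 0 0 0)
  set K : ℝ := 4 * C + 4 with hK
  have hK0 : 0 < K := by positivity
  set lam : ℝ := 4 * (C + 1) * (K + 1) with hlam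
  have hl : 0 < lam := by positivity
  -- unknowns
  let w : ℝ → ℝ := fun s => Real.exp (lam * |s|)
  have hw : ∀ s, 0 < w s := fun s => Real.exp_pos _
  have hwc : Continuous w := by fun_prop
  have hw1 : ∀ s, 1 ≤ w s := fun s => Real.one_le_exp (by positivity)
  let X : (ℝ →ᵇ ℝ × ℝ) → ℝ → ℝ := fun v s => w s * (v s).1
  let Z : (ℝ →ᵇ ℝ × ℝ) → ℝ → ℝ := fun v s => K * w s * (v s).2
  have hX : ∀ v, Continuous (X v) := fun v => hwc.mul (continuous_fst.comp v.continuous)
  have hZ : ∀ v, Continuous (Z v) := fun v =>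
    (continuous_const.mul hwc).mul (continuous_snd.comp v.continuous)
  have hMc : ∀ v, Continuous (fun t => M t (X v t) (Z v t)) := fun v =>
    hM.comp (continuous_id.prodMk ((hX v).prodMk (hZ v)))
  have hNc : ∀ v, Continuous (fun t => N t (X v t) (Z v t)) := fun v =>
    hN.comp (continuous_id.prodMk ((hX v).prodMk (hZ v)))
  let F1 : (ℝ →ᵇ ℝ × ℝ) → ℝ → ℝ := fun v s =>
    (w s)⁻¹ * (1 + ∫ t in (0 : ℝ)..s, M t (X v t) (Z v t))
  let F2 : (ℝ →ᵇ ℝ × ℝ) → ℝ → ℝ := fun v s =>
    (K * w s)⁻¹ * T p (fun t => N t (X v t) (Z v t)) s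
  have hF1c : ∀ v, Continuous (F1 v) := by
    intro v
    apply Continuous.mul (hwc.inv₀ fun s => (hw s).ne')
    apply continuous_const.add
    exact intervalIntegral.continuous_primitive (fun a b => (hMc v).intervalIntegrable a b) 0
  have hF2c : ∀ v, Continuous (F2 v) := by
    intro v
    exact Continuous.mul ((continuous_const.mul hwc).inv₀ fun s => (mul_pos hK0 (hw s)).ne')
      (T_cont p (hNc v))
  have hF1b : ∀ v s, |F1 v s| ≤ 1 + C / lam := by
    intro v s
    have h1 := prim_bound (hMc v) C lam hl hC (fun t => by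
      calc |M t (X v t) (Z v t)| ≤ C * 1 := by rw [mul_one]; exact hMb _ _ _
        _ ≤ C * Real.exp (lam * |t|) := mul_le_mul_of_nonneg_left (hw1 t) hC) s
    have h2 : |1 + ∫ t in (0 : ℝ)..s, M t (X v t) (Z v t)| ≤ (1 + C / lam) * w s := by
      calc _ ≤ |(1 : ℝ)| + |∫ t in (0 : ℝ)..s, M t (X v t) (Z v t)| := abs_add_le _ _
        _ ≤ w s + C / lam * w s := by
            rw [abs_one]
            exact add_le_add (hw1 s) h1
        _ = _ := by ring
    show |(w s)⁻¹ * _| ≤ _
    rw [abs_mul, abs_of_pos (inv_pos.2 (hw s)), inv_mul_le_iff₀ (hw s)]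
    linarith
  have hF2b : ∀ v s, |F2 v s| ≤ C / 2 / K := by
    intro v s
    have h1 := T_bound p (hNc v) C 0 lam hl hC le_rfl (fun t => by
      calc |N t (X v t) (Z v t)| ≤ (C + 0 * |t|) * 1 := by
            rw [mul_one, zero_mul, add_zero]; exact hNb _ _ _
        _ ≤ (C + 0 * |t|) * Real.exp (lam * |t|) :=
            mul_le_mul_of_nonneg_left (hw1 t) (by simpa using hC)) s
    rw [zero_div, add_zero] at h1
    show |(K * w s)⁻¹ * _| ≤ _
    rw [abs_mul, abs_of_pos (inv_pos.2 (mul_pos hK0 (hw s))),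
      inv_mul_le_iff₀ (mul_pos hK0 (hw s))]
    calc _ ≤ C / 2 * w s := h1
      _ = K * w s * (C / 2 / K) := by field_simp
  let Φ : (ℝ →ᵇ ℝ × ℝ) → (ℝ →ᵇ ℝ × ℝ) := fun v =>
    BoundedContinuousFunction.ofNormedAddCommGroup (fun s => (F1 v s, F2 v s))
      ((hF1c v).prodMk (hF2c v)) (max (1 + C / lam) (C / 2 / K)) (fun s => by
        rw [Prod.norm_def]
        exact max_le_max (hF1b v s) (hF2b v s))
  have hΦ1 : ∀ v s, ((Φ v) s).1 = F1 v s := fun v s => rfl
  have hΦ2 : ∀ v s, ((Φ v) s).2 = F2 v s := fun v s => rfl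
  have hdist : ∀ (v v' : ℝ →ᵇ ℝ × ℝ) (t : ℝ), |(v t).1 - (v' t).1| ≤ dist v v' ∧
      |(v t).2 - (v' t).2| ≤ dist v v' := by
    intro v v' t
    have h1 := BoundedContinuousFunction.dist_coe_le_dist (f := v) (g := v') t
    rw [Prod.dist_eq] at h1
    exact ⟨(le_max_left _ _).trans h1, (le_max_right _ _).trans h1⟩
  have hXd : ∀ (v v' : ℝ →ᵇ ℝ × ℝ) (t : ℝ), |X v t - X v' t| ≤ dist v v' * w t := by
    intro v v' t
    show |w t * (v t).1 - w t * (v' t).1| ≤ _
    rw [← mul_sub, abs_mul, abs_of_pos (hw t), mul_comm]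
    exact mul_le_mul_of_nonneg_right (hdist v v' t).1 (hw t).le
  have hZd : ∀ (v v' : ℝ →ᵇ ℝ × ℝ) (t : ℝ), |Z v t - Z v' t| ≤ K * dist v v' * w t := by
    intro v v' t
    show |K * w t * (v t).2 - K * w t * (v' t).2| ≤ _
    rw [← mul_sub, abs_mul, abs_of_pos (mul_pos hK0 (hw t))]
    calc K * w t * |(v t).2 - (v' t).2| ≤ K * w t * dist v v' :=
          mul_le_mul_of_nonneg_left (hdist v v' t).2 (mul_pos hK0 (hw t)).le
      _ = _ := by ring
  have hlip : ∀ v v', dist (Φ v) (Φ v') ≤ 1 / 2 * dist v v' := by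
    intro v v'
    have hd0 : 0 ≤ dist v v' := dist_nonneg
    rw [BoundedContinuousFunction.dist_le (by positivity)]
    intro s
    rw [Prod.dist_eq, hΦ1, hΦ2, hΦ1, hΦ2, Real.dist_eq, Real.dist_eq]
    apply max_le
    · show |(w s)⁻¹ * (1 + _) - (w s)⁻¹ * (1 + _)| ≤ _
      rw [← mul_sub, add_sub_add_left_eq_sub, abs_mul, abs_of_pos (inv_pos.2 (hw s)),
        inv_mul_le_iff₀ (hw s), ← intervalIntegral.integral_sub
          ((hMc v).intervalIntegrable _ _) ((hMc v').intervalIntegrable _ _)]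
      have h1 := prim_bound ((hMc v).sub (hMc v')) (C * (1 + K) * dist v v') lam hl
        (by positivity) (fun t => by
          calc |M t (X v t) (Z v t) - M t (X v' t) (Z v' t)|
              ≤ C * (|X v t - X v' t| + |Z v t - Z v' t|) := hMl _ _ _ _ _
            _ ≤ C * (dist v v' * w t + K * dist v v' * w t) :=
                mul_le_mul_of_nonneg_left (add_le_add (hXd v v' t) (hZd v v' t)) hC
            _ = C * (1 + K) * dist v v' * w t := by ring) s
      refine h1.trans ?_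
      have h2 : C * (1 + K) * dist v v' / lam ≤ 1 / 2 * dist v v' := by
        rw [div_le_iff₀ hl, hlam]
        nlinarith [mul_nonneg (mul_nonneg hC hK0.le) hd0, mul_nonneg hC hd0,
          mul_nonneg hK0.le hd0]
      calc _ ≤ (1 / 2 * dist v v') * w s := mul_le_mul_of_nonneg_right h2 (hw s).le
        _ = _ := by ring
    · show |(K * w s)⁻¹ * _ - (K * w s)⁻¹ * _| ≤ _
      rw [← mul_sub, abs_mul, abs_of_pos (inv_pos.2 (mul_pos hK0 (hw s))),
        inv_mul_le_iff₀ (mul_pos hK0 (hw s)), T_sub p (hNc v) (hNc v')]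
      have h1 := T_bound p ((hNc v).sub (hNc v')) (C * dist v v') (C * (1 + K) * dist v v') lam hl
        (by positivity) (by positivity) (fun t => by
          calc |N t (X v t) (Z v t) - N t (X v' t) (Z v' t)|
              ≤ C * (1 + |t|) * |X v t - X v' t| + C * |t| * |Z v t - Z v' t| := hNl _ _ _ _ _
            _ ≤ C * (1 + |t|) * (dist v v' * w t) + C * |t| * (K * dist v v' * w t) :=
                add_le_add (mul_le_mul_of_nonneg_left (hXd v v' t) (by positivity))
                  (mul_le_mul_of_nonneg_left (hZd v v' t) (by positivity))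
            _ = (C * dist v v' + C * (1 + K) * dist v v' * |t|) * w t := by ring) s
      refine h1.trans ?_
      have h2 : C * dist v v' / 2 + C * (1 + K) * dist v v' / (2 * lam)
          ≤ K * (1 / 2 * dist v v') := by
        have h3 : C * (1 + K) * dist v v' / (2 * lam) ≤ 1 / 8 * dist v v' := by
          rw [div_le_iff₀ (by positivity), hlam]
          nlinarith [mul_nonneg (mul_nonneg hC hK0.le) hd0, mul_nonneg hC hd0,
            mul_nonneg hK0.le hd0]
        rw [hK]
        nlinarith [mul_nonneg hC hd0]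
      calc _ ≤ (K * (1 / 2 * dist v v')) * w s := mul_le_mul_of_nonneg_right h2 (hw s).le
        _ = _ := by ring
  have hcontr : ContractingWith (1 / 2 : NNReal) Φ := by
    refine ⟨by
      rw [← NNReal.coe_lt_coe]; push_cast; norm_num, LipschitzWith.of_dist_le_mul fun v v' => ?_⟩
    have := hlip v v'
    push_cast
    exact this
  set v := hcontr.fixedPoint Φ with hv
  have hfix : Φ v = v := hcontr.fixedPoint_isFixedPt
  refine ⟨X v, Z v, hX v, hZ v, fun s => ?_, fun s => ?_⟩
  · have h1 : (v s).1 = F1 v s := by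
      conv_lhs => rw [← hfix]
      exact hΦ1 v s
    show w s * (v s).1 = _
    rw [h1]
    show w s * ((w s)⁻¹ * _) = _
    rw [← mul_assoc, mul_inv_cancel₀ (hw s).ne', one_mul]
  · have h1 : (v s).2 = F2 v s := by
      conv_lhs => rw [← hfix]
      exact hΦ2 v s
    show K * w s * (v s).2 = _
    rw [h1]
    show K * w s * ((K * w s)⁻¹ * _) = _
    rw [← mul_assoc, mul_inv_cancel₀ (mul_pos hK0 (hw s)).ne', one_mul]

end Vale.Agent.H6.AB
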